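import Vale.Agent.P192.Main

theorem Vale.Agent.Results.P192.A_full.result :
    ∃ (G : Type) (_ : Group G), Group.IsFinitelyPresented G ∧ Infinite G ∧
      ∀ g : G, IsOfFinOrder g :=
  Vale.Agent.P192.main
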